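import Vale.Agent.Helper22.PlaceFin
import Vale.Agent.Helper22.ConcaveMain
import Vale.Agent.Helper22.FsFin
import Vale.Agent.Helper22.FsJoin
import Vale.Agent.Helper22.TruncSimpFinal

/-!
P254 (strong isotropic constant conjecture): the conjectured simplex bound for `D = det Σ / vol^2`
in several families of bodies, and its closure under several operations.

1. Convex hulls of at most `n + 2` points of `ℝ^n`, with equality exactly for `n`-simplices.
2. Convex bodies of revolution (strict inequality from dimension three on).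
3. Towers with a concave profile over a centred base that satisfies the bound.
4. Pyramids over a base: the bound (and equality) holds for the pyramid iff it holds for the base.
5. Joins: `D(J) / D(Δ_(k+l+1)) = (D(A) / D(Δ_k)) (D(B) / D(Δ_l))` for the join `J` of `A` and `B`.
6. Free sums of two bodies that satisfy the bound.
7. Simplices with one vertex cut off by a hyperplane, in every dimension, with equality exactly
   when what is left is a simplex.
8. The closed form of `D` for the standard simplex.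
-/

namespace Vale.Agent.Results.P254.ClassesAndClosure

open MeasureTheory Vale.Agent.Helper22

theorem result :
    (∀ (n : ℕ) (V : Finset (Fin n → ℝ)), V.card ≤ n + 2 →
      isoRatio (convexHull ℝ (V : Set (Fin n → ℝ))) ≤ isoRatio (stdSimp (Fin n)) ∧
      (isoRatio (convexHull ℝ (V : Set (Fin n → ℝ))) = isoRatio (stdSimp (Fin n)) ↔
        ∃ q : Fin (n + 1) → Fin n → ℝ, AffineIndependent ℝ q ∧
          convexHull ℝ (Set.range q) = convexHull ℝ (V : Set (Fin n → ℝ)))) ∧
    (∀ (n : ℕ) (f : ℝ → ℝ) (a b : ℝ), a < b → ContinuousOn f (Set.Icc a b) →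
      ConcaveOn ℝ (Set.Icc a b) f → (∀ t ∈ Set.Icc a b, 0 ≤ f t) →
      (∃ t ∈ Set.Icc a b, 0 < f t) →
      Convex ℝ (revBody n f a b) ∧ IsCompact (revBody n f a b) ∧ 0 < vol (revBody n f a b) ∧
      isoRatio (revBody n f a b) ≤ isoRatio (stdSimp (Fin (n + 1))) ∧
      (2 ≤ n → isoRatio (revBody n f a b) < isoRatio (stdSimp (Fin (n + 1))))) ∧
    (∀ (m : ℕ) (M : Set (Fin m → ℝ)), MeasurableSet M → Bornology.IsBounded M →
      (∀ i, mom1 M i = 0) → isoRatio M ≤ isoRatio (stdSimp (Fin m)) →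
      ∀ (f : ℝ → ℝ) (a b : ℝ), a < b → ContinuousOn f (Set.Icc a b) →
        ConcaveOn ℝ (Set.Icc a b) f → (∀ t ∈ Set.Icc a b, 0 ≤ f t) →
        (∃ t ∈ Set.Icc a b, 0 < f t) →
        isoRatio (ctower M f a b) ≤ isoRatio (stdSimp (Fin (m + 1)))) ∧
    (∀ (m : ℕ) (M : Set (Fin m → ℝ)), MeasurableSet M → Bornology.IsBounded M →
      (isoRatio M ≤ isoRatio (stdSimp (Fin m)) ↔
        isoRatio (pyr M) ≤ isoRatio (stdSimp (Fin (m + 1)))) ∧
      (isoRatio M = isoRatio (stdSimp (Fin m)) ↔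
        isoRatio (pyr M) = isoRatio (stdSimp (Fin (m + 1))))) ∧
    (∀ (k l : ℕ), 0 < l → ∀ (A : Set (Fin k → ℝ)) (B : Set (Fin l → ℝ)),
      IsCompact A → Convex ℝ A → 0 < vol A →
      IsCompact B → Convex ℝ B → (0 : Fin l → ℝ) ∈ B → 0 < vol B →
      isoRatio (convexHull ℝ
          ((fun x : Fin k → ℝ =>
              (Sum.elim (Sum.elim x (fun _ => (1:ℝ))) 0 : (Fin k ⊕ Unit) ⊕ Fin l → ℝ)) '' A ∪
            (fun y : Fin l → ℝ => (Sum.elim 0 y : (Fin k ⊕ Unit) ⊕ Fin l → ℝ)) '' B)) =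
        isoRatio (stdSimp (Fin (k + l + 1))) * (isoRatio A / isoRatio (stdSimp (Fin k))) *
          (isoRatio B / isoRatio (stdSimp (Fin l)))) ∧
    (∀ (k l : ℕ), 0 < k → 0 < l → ∀ (A : Set (Fin k → ℝ)) (B : Set (Fin l → ℝ)),
      IsCompact A → Convex ℝ A → (0 : Fin k → ℝ) ∈ A → 0 < vol A →
      IsCompact B → Convex ℝ B → (0 : Fin l → ℝ) ∈ B → 0 < vol B →
      isoRatio A ≤ isoRatio (stdSimp (Fin k)) → isoRatio B ≤ isoRatio (stdSimp (Fin l)) →
      isoRatio (convexHull ℝ
          ((fun x : Fin k → ℝ => (Sum.elim x 0 : Fin k ⊕ Fin l → ℝ)) '' A ∪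
            (fun y : Fin l → ℝ => (Sum.elim 0 y : Fin k ⊕ Fin l → ℝ)) '' B)) ≤
        isoRatio (stdSimp (Fin (k + l)))) ∧
    (∀ (n : ℕ) (a b : Fin n → ℝ) (U : Matrix (Fin n) (Fin n) ℝ), (∀ i, 0 < a i ∧ a i ≤ 1) →
      ∏ i, a i < 1 → U.det ≠ 0 →
      Convex ℝ ((fun x : Fin n → ℝ => b + U.mulVec x) '' truncSimp a) ∧
      0 < vol ((fun x : Fin n → ℝ => b + U.mulVec x) '' truncSimp a) ∧
      isoRatio ((fun x : Fin n → ℝ => b + U.mulVec x) '' truncSimp a) ≤
        isoRatio (stdSimp (Fin n)) ∧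
      (isoRatio ((fun x : Fin n → ℝ => b + U.mulVec x) '' truncSimp a) =
          isoRatio (stdSimp (Fin n)) ↔ ∃ j, ∀ i, i ≠ j → a i = 1)) ∧
    (∀ n : ℕ, isoRatio (stdSimp (Fin n)) =
      (n.factorial : ℝ) ^ 2 / (((n : ℝ) + 1) ^ (n + 1) * ((n : ℝ) + 2) ^ n)) := by
  refine ⟨few_vertices, ?_, ?_, ?_, ?_, ?_, ?_, isoRatio_stdSimp_fin⟩
  · intro n f a b hab hcont hconc hnn hpos
    exact revBody_main n f a b hab hcont hconc hnn hpos
  · intro m M hM hb hcen hle f a b hab hcont hconc hnn hpos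
    rw [isoRatio_stdSimp_relabel (lastEquiv m)]
    exact (concave_tower_main M hM hb hcen f a b hab hcont hconc hnn hpos).2.2.2.1 hle
  · intro m M hM hb
    have h1 := isoRatio_pyr hM hb
    have h2 := isoRatio_stdSimp_succ (ι := Fin m)
    have hc := pyrConst_pos (Fintype.card (Fin m))
    constructor
    · rw [isoRatio_stdSimp_relabel (lastEquiv m), h1, h2]
      exact (mul_le_mul_iff_right₀ hc).symm
    · rw [isoRatio_stdSimp_relabel (lastEquiv m), h1, h2]
      constructor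
      · intro h; rw [h]
      · intro h; exact mul_left_cancel₀ hc.ne' h
  · intro k l hl A B hA hAc hAV hB hBc hB0 hBV
    exact (join_fin k l hl A B hA hAc hAV hB hBc hB0 hBV _ rfl).1
  · intro k l hk hl A B hA hAc hA0 hAV hB hBc hB0 hBV hleA hleB
    exact ((free_sum_fin k l hk hl A B hA hAc hA0 hAV hB hBc hB0 hBV _ _ _ rfl rfl
      rfl).2.2.2.1 hleA hleB).1
  · intro n a b U ha hp hU
    obtain ⟨-, h2, h3, h4, h5⟩ := truncSimp_affine a ha hp b U hU
    exact ⟨h2, h3, h4, h5⟩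

end Vale.Agent.Results.P254.ClassesAndClosure
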