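import Vale.Agent.Helper22.PlaceFin

/-!
P254 (strong isotropic constant conjecture): the conjecture, with its equality case, for the
convex hull of at most `n + 2` points of `ℝ^n` (so for every polytope with at most `n + 2`
vertices), in every dimension `n`.

* For every set `V` of at most `n + 2` points, `det Σ / vol^2` of `conv V` is at most that of the
  simplex, with equality exactly when `conv V` is an `n`-simplex (the convex hull of `n + 1`
  affinely independent points).
* Every `n`-simplex has the same value as the standard corner simplex, and the convex hull of an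
  `n`-simplex with vertices `q` and one further point with barycentric coordinates `β` has an
  explicit value.
* The value for the simplex in closed form.
-/

namespace Vale.Agent.Results.P254.FewVertices

open MeasureTheory Vale.Agent.Helper22

theorem result :
    (∀ (n : ℕ) (V : Finset (Fin n → ℝ)), V.card ≤ n + 2 →
      isoRatio (convexHull ℝ (V : Set (Fin n → ℝ))) ≤ isoRatio (stdSimp (Fin n)) ∧
      (isoRatio (convexHull ℝ (V : Set (Fin n → ℝ))) = isoRatio (stdSimp (Fin n)) ↔
        ∃ q : Fin (n + 1) → Fin n → ℝ, AffineIndependent ℝ q ∧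
          convexHull ℝ (Set.range q) = convexHull ℝ (V : Set (Fin n → ℝ)))) ∧
    (∀ (n : ℕ) (q : Fin (n + 1) → Fin n → ℝ), AffineIndependent ℝ q →
      isoRatio (convexHull ℝ (Set.range q)) = isoRatio (stdSimp (Fin n)) ∧
      ∀ β : Fin (n + 1) → ℝ, ∑ i, β i = 1 →
        isoRatio (convexHull ℝ (insert (∑ i, β i • q i) (Set.range q))) =
          isoRatio (stdSimp (Fin n)) *
            (1 - (1 - (1 + ∑ i, (min (β i) 0) ^ 2) / (∑ i, max (β i) 0) ^ 2) *
              (1 - (∑ i, (max (β i) 0) ^ 2) / (∑ i, max (β i) 0) ^ 2))) ∧
    (∀ n : ℕ, isoRatio (stdSimp (Fin n)) =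
      (n.factorial : ℝ) ^ 2 / (((n : ℝ) + 1) ^ (n + 1) * ((n : ℝ) + 2) ^ n)) :=
  ⟨few_vertices,
    fun _ q hq => ⟨isoRatio_simplex q hq, fun β hβ => isoRatio_hull q hq β hβ⟩,
    isoRatio_stdSimp_fin⟩

end Vale.Agent.Results.P254.FewVertices
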