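import Vale.Agent.Helper22.FsFin

/-!
P254 (strong isotropic constant conjecture): the free-sum theorem.

For compact convex sets `A ⊆ ℝ^k`, `B ⊆ ℝ^l` of positive volume that contain the origin, let
`E = conv (A × {0} ∪ {0} × B) ⊆ ℝ^(k+l)` be their free sum. Writing `D = det Σ / vol^2` and
`a_K = (m + 2 + b_K^T Σ_K^{-1} b_K) / ((m + 1)(m + 2))` for `K` in dimension `m` (`b_K` the
centroid), the theorem gives

* `1/(k+1) ≤ a_A ≤ 1`, `1/(l+1) ≤ a_B ≤ 1`;
* `D(E) / D(Δ_(k+l)) = (D(A) / D(Δ_k)) (D(B) / D(Δ_l)) (1 - (1 - a_A)(1 - a_B))`;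
* `a_E (1 - (1 - a_A)(1 - a_B)) = a_A a_B`, that is `1/a_E - 1 = (1/a_A - 1) + (1/a_B - 1)`;
* if `A` and `B` satisfy the simplex bound then so does `E`, with equality exactly when `A` and
  `B` are extremal and `a_A = 1` or `a_B = 1`;
* `E` is again compact, convex, contains the origin and has positive volume.

As an application, the convex hull of at most `k + 2` points of `ℝ^k × 0` and at most `l + 2`
points of `0 × ℝ^l` (both hulls containing the origin, of positive volume) satisfies the simplex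
bound in `ℝ^(k+l)`.
-/

namespace Vale.Agent.Results.P254.FreeSums

open MeasureTheory Vale.Agent.Helper22

theorem result :
    (∀ (k l : ℕ), 0 < k → 0 < l → ∀ (A : Set (Fin k → ℝ)) (B : Set (Fin l → ℝ)),
      IsCompact A → Convex ℝ A → (0 : Fin k → ℝ) ∈ A → 0 < vol A →
      IsCompact B → Convex ℝ B → (0 : Fin l → ℝ) ∈ B → 0 < vol B →
      ∀ (E : Set (Fin k ⊕ Fin l → ℝ)) (a b : ℝ),
        E = convexHull ℝ ((fun x : Fin k → ℝ => (Sum.elim x 0 : Fin k ⊕ Fin l → ℝ)) '' A ∪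
          (fun y : Fin l → ℝ => (Sum.elim 0 y : Fin k ⊕ Fin l → ℝ)) '' B) →
        a = ((k : ℝ) + 2 + mahal A) / (((k : ℝ) + 1) * ((k : ℝ) + 2)) →
        b = ((l : ℝ) + 2 + mahal B) / (((l : ℝ) + 1) * ((l : ℝ) + 2)) →
        (1 / ((k : ℝ) + 1) ≤ a ∧ a ≤ 1 ∧ 1 / ((l : ℝ) + 1) ≤ b ∧ b ≤ 1) ∧
        isoRatio E = isoRatio (stdSimp (Fin (k + l))) *
          (isoRatio A / isoRatio (stdSimp (Fin k))) *
          (isoRatio B / isoRatio (stdSimp (Fin l))) * (1 - (1 - a) * (1 - b)) ∧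
        ((k : ℝ) + l + 2 + mahal E) / (((k : ℝ) + l + 1) * ((k : ℝ) + l + 2)) *
          (1 - (1 - a) * (1 - b)) = a * b ∧
        (isoRatio A ≤ isoRatio (stdSimp (Fin k)) → isoRatio B ≤ isoRatio (stdSimp (Fin l)) →
          isoRatio E ≤ isoRatio (stdSimp (Fin (k + l))) ∧
          (isoRatio E = isoRatio (stdSimp (Fin (k + l))) ↔
            isoRatio A = isoRatio (stdSimp (Fin k)) ∧
              isoRatio B = isoRatio (stdSimp (Fin l)) ∧ (a = 1 ∨ b = 1))) ∧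
        IsCompact E ∧ Convex ℝ E ∧ (0 : Fin k ⊕ Fin l → ℝ) ∈ E ∧ 0 < vol E) ∧
    (∀ (k l : ℕ), 0 < k → 0 < l → ∀ (V : Finset (Fin k → ℝ)) (W : Finset (Fin l → ℝ)),
      V.card ≤ k + 2 → W.card ≤ l + 2 →
      (0 : Fin k → ℝ) ∈ convexHull ℝ (V : Set (Fin k → ℝ)) →
      0 < vol (convexHull ℝ (V : Set (Fin k → ℝ))) →
      (0 : Fin l → ℝ) ∈ convexHull ℝ (W : Set (Fin l → ℝ)) →
      0 < vol (convexHull ℝ (W : Set (Fin l → ℝ))) →
      isoRatio (convexHull ℝ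
        ((fun x : Fin k → ℝ => (Sum.elim x 0 : Fin k ⊕ Fin l → ℝ)) '' (V : Set (Fin k → ℝ)) ∪
          (fun y : Fin l → ℝ => (Sum.elim 0 y : Fin k ⊕ Fin l → ℝ)) '' (W : Set (Fin l → ℝ)))) ≤
        isoRatio (stdSimp (Fin (k + l)))) :=
  ⟨free_sum_fin, free_sum_few_vertices⟩

end Vale.Agent.Results.P254.FreeSums
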