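import Vale.Agent.Helper22.TruncSimpGeom
import Vale.Agent.Helper22.Wedge

/-!
P254 (strong isotropic constant conjecture): the conjectured simplex bound for
`D = det Σ / vol^2` for simplices with one vertex cut off by a hyperplane, in every dimension,
with the equality case and the exact value of `D`, and for the limit case of wedges.

Part A is the geometric form: an `n`-simplex cut by a closed half-space that misses exactly one
vertex satisfies `D(K) ≤ D(simplex)`, with equality exactly when `K` is again a simplex.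

Part B is the same class in coordinates.  Up to an invertible affine map, a simplex with one vertex
cut off is `{x ≥ 0 : ∑ x_i ≤ 1 ≤ ∑ x_i / a_i}` with `0 < a_i ≤ 1`: the standard simplex with the
corner `conv(0, a_1 e_1, …, a_n e_n)` at the origin removed.  The bound holds for all of them, with
equality exactly when all but at most one `a_i` equal `1`, that is, when `K` is a simplex; the
exact value of `D(K)` is given.

Part C is the limit case in which the cut-off vertex moves to infinity: wedges, that is, prisms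
over a simplex with parallel lateral edges, below an affine roof.

Part D is the value of `D` for the simplex.
-/

namespace Vale.Agent.Results.P254.TruncatedSimplices

open MeasureTheory Vale.Agent.Helper22

theorem result :
    (∀ (n : ℕ) (q : Fin (n + 1) → Fin n → ℝ) (c : Fin n → ℝ) (d : ℝ) (j : Fin (n + 1)),
      AffineIndependent ℝ q → ∑ i, c i * q j i + d < 0 →
      (∀ k, k ≠ j → 0 ≤ ∑ i, c i * q k i + d) → (∃ k, 0 < ∑ i, c i * q k i + d) →
      ∀ K : Set (Fin n → ℝ),
        K = convexHull ℝ (Set.range q) ∩ {y | 0 ≤ ∑ i, c i * y i + d} →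
        IsCompact K ∧ Convex ℝ K ∧ 0 < vol K ∧
        isoRatio K ≤ isoRatio (stdSimp (Fin n)) ∧
        (isoRatio K = isoRatio (stdSimp (Fin n)) ↔
          ∃ r : Fin (n + 1) → Fin n → ℝ, AffineIndependent ℝ r ∧
            convexHull ℝ (Set.range r) = K)) ∧
    (∀ (n : ℕ) (a b : Fin n → ℝ) (U : Matrix (Fin n) (Fin n) ℝ) (p : ℝ),
      (∀ i, 0 < a i ∧ a i ≤ 1) → p = ∏ i, a i → p < 1 → U.det ≠ 0 →
      ∀ K : Set (Fin n → ℝ), K = (fun x : Fin n → ℝ => b + U.mulVec x) '' truncSimp a →
        IsCompact K ∧ Convex ℝ K ∧ 0 < vol K ∧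
        isoRatio K ≤ isoRatio (stdSimp (Fin n)) ∧
        (isoRatio K = isoRatio (stdSimp (Fin n)) ↔
          ∃ r : Fin (n + 1) → Fin n → ℝ, AffineIndependent ℝ r ∧
            convexHull ℝ (Set.range r) = K) ∧
        (isoRatio K = isoRatio (stdSimp (Fin n)) ↔ ∃ j, ∀ i, i ≠ j → a i = 1) ∧
        isoRatio K = isoRatio (stdSimp (Fin n)) *
          ((∏ i, (1 - p * a i ^ 2) / (1 - p)) *
            ((1 - p) - 2 * p * (∑ i, (1 - a i) ^ 2 / (1 - p * a i ^ 2)) -
              p * ((∑ i, (1 - a i) / (1 - p * a i ^ 2)) ^ 2 -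
                p * (∑ i, a i * (1 - a i) / (1 - p * a i ^ 2)) ^ 2)) / (1 - p) ^ 3)) ∧
    (∀ (m : ℕ) (h b : Fin (m + 1) → ℝ) (U : Matrix (Fin (m + 1)) (Fin (m + 1)) ℝ),
      (∀ k, 0 ≤ h k) → (∃ k, 0 < h k) → U.det ≠ 0 →
      ∀ K : Set (Fin (m + 1) → ℝ),
        K = (fun x : Fin (m + 1) → ℝ => b + U.mulVec x) '' wedge h →
        IsCompact K ∧ Convex ℝ K ∧ 0 < vol K ∧
        isoRatio K ≤ isoRatio (stdSimp (Fin (m + 1)))) ∧
    (∀ n : ℕ, isoRatio (stdSimp (Fin n)) =
      (n.factorial : ℝ) ^ 2 / (((n : ℝ) + 1) ^ (n + 1) * ((n : ℝ) + 2) ^ n)) := by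
  refine ⟨?_, ?_, ?_, isoRatio_stdSimp_fin⟩
  · intro n q c d j hq h0 h1 h2 K hK
    subst hK
    exact cut_simplex_main q hq c d j h0 h1 h2
  · intro n a b U p ha hp hp1 hU K hK
    subst hp hK
    obtain ⟨h1, h2, h3, h4, h5⟩ := truncSimp_affine a ha hp1 b U hU
    have hn : 0 < n := by
      rcases Nat.eq_zero_or_pos n with h | h
      · subst h
        simp at hp1
      · exact h
    have hc := (truncSimp_main a ha hp1).1
    have hform := isoRatio_truncSimp (fun i => (ha i).1) (fun i => (ha i).2) hp1 ⟨0, hn⟩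
    have haff := isoRatio_affImage b U hU hc
    refine ⟨h1, h2, h3, h4, truncSimp_affine_simplex a ha hp1 b U hU, h5, ?_⟩
    exact haff.trans hform
  · intro m h b U hh hpos hU K hK
    subst hK
    exact wedge_affine h hh hpos b U hU

end Vale.Agent.Results.P254.TruncatedSimplices
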